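import Vale.Agent.P315.OT.H71.Local

/-!
P315, one-scale track, block OT-5: the atoms in expectation (`StmtAtoms`).
-/

set_option autoImplicit false

namespace Vale.Agent.P315.OT

open Finset

/-! ### Facts about the comparison path -/

/-- Visible and hidden values of a node of level `j` differ by at most its length. -/
theorem dvis_le71 {I : Inst} (hM : 1 ≤ I.M) {l0 : ℕ} (hv : ∀ s u v, I.vis s u v ≤ I.hid s u v + l0) :
    ∀ j s u v, u ≤ v → I.D I.vis j s u v ≤ I.D I.hid j s u v + I.M ^ j * l0 := by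
  intro j
  induction j with
  | zero =>
    intro s u v _
    have := hv s u v
    show I.vis s u v ≤ I.hid s u v + I.M ^ 0 * l0
    rw [pow_zero, one_mul]; exact this
  | succ j ih =>
    intro s u v huv
    obtain ⟨z, hz, e⟩ := exists_best
      (f := fun i => I.edge j (I.D I.hid j (s * I.M + i))) hM (Nat.mul_le_mul_right I.M huv)
    rw [Inst.D, Inst.D, ← e]
    refine (best_le hz).trans ?_
    unfold chainCost
    calc ∑ i ∈ range I.M, I.edge j (I.D I.vis j (s * I.M + i)) (z i) (z (i + 1))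
        ≤ ∑ i ∈ range I.M, (I.edge j (I.D I.hid j (s * I.M + i)) (z i) (z (i + 1)) +
            I.M ^ j * l0) := by
          refine Finset.sum_le_sum fun i hi => ?_
          have hi' := Finset.mem_range.mp hi
          unfold Inst.edge
          split_ifs
          · exact ih _ _ _ (hz.mono i hi')
          · exact Nat.le_add_right _ _
      _ = _ := by
          rw [Finset.sum_add_distrib, Finset.sum_const, Finset.card_range, smul_eq_mul, pow_succ]
          ring

theorem pst_range71 {I : Inst} (hM : 1 ≤ I.M) {n Y l0 : ℕ} : ∀ d t, t < I.M ^ d → ∀ u v,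
    I.pst n Y l0 d t = .inl (u, v) → u ≤ v ∧ v ≤ Y * I.M ^ d := by
  intro d
  induction d with
  | zero =>
    intro t _ u v h
    have h' : (Sum.inl (0, Y) : (ℕ × ℕ) ⊕ ℝ) = .inl (u, v) := h
    have h2 : ((0 : ℕ), Y) = (u, v) := Sum.inl.inj h'
    have h3 := Prod.mk.inj h2
    rw [← h3.1, ← h3.2]
    exact ⟨Nat.zero_le _, by rw [pow_zero, mul_one]⟩
  | succ d ih =>
    intro t ht u v h
    have ht' : t / I.M < I.M ^ d := Nat.div_lt_of_lt_mul (by rwa [pow_succ, mul_comm] at ht)
    have hmod : t % I.M < I.M := Nat.mod_lt _ (by omega)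
    rw [Inst.pst] at h
    rcases hp : I.pst n Y l0 d (t / I.M) with ⟨u', v'⟩ | r
    · rw [hp] at h
      obtain ⟨h1, h2⟩ := ih _ ht' u' v' hp
      simp only at h
      split_ifs at h with hw
      have h3 := Prod.mk.inj (Sum.inl.inj h)
      obtain ⟨hc, _⟩ := Inst.opt_spec (I := I) hM (n - d - 1) (t / I.M) h1
      rw [← h3.1, ← h3.2]
      refine ⟨hc.mono _ hmod, (hc.le (by omega)).trans ?_⟩
      rw [pow_succ, ← mul_assoc]
      exact Nat.mul_le_mul_right _ h2
    · rw [hp] at h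
      simp at h

theorem lin_congr71 {M n : ℕ} {xi xi' : ℕ → ℕ → ℕ} : ∀ d,
    (∀ d' < d, ∀ s < M ^ (d' + 1), xi (n - d' - 1) s = xi' (n - d' - 1) s) →
    ∀ t < M ^ d, lin M n xi d t = lin M n xi' d t := by
  intro d
  induction d with
  | zero => intro _ t _; rfl
  | succ d ih =>
    intro h t ht
    have ht' : t / M < M ^ d := Nat.div_lt_of_lt_mul (by rwa [pow_succ, mul_comm] at ht)
    rw [lin, lin, ih (fun d' hd' s hs => h d' (by omega) s hs) _ ht', h d (by omega) t ht]

/-! ### Atoms -/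

section

variable {Q : Prm} {Cd : Code} {P : Picker} {hid vis : ℕ → ℕ → ℕ → ℕ} {Y : ℕ}

/-- Own curve of the child: the comparison path in the slab `s` of level `j`, at own index `b`. -/
noncomputable def own71 (Q : Prm) (Cd : Code) (P : Picker) (hid vis : ℕ → ℕ → ℕ → ℕ) (Y : ℕ)
    (ω : ℕ → ℕ) (j s b : ℕ) : ℝ :=
  match (Q.inst hid vis).pst Q.n Y Q.l0 (Q.n - j) s with
  | .inr r => r
  | .inl (u, v) => ((Q.inst hid vis).c (Q.sch Cd P ω) j s u v b : ℝ) / ((Q.M : ℝ) ^ j * Q.l0)

theorem cur_eq_own71 (ω : ℕ → ℕ) (j s β : ℕ) :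
    (Q.inst hid vis).cur (Q.sch Cd P ω) Q.n Y Q.l0 j s β =
      own71 Q Cd P hid vis Y ω j s (β - lin Q.M Q.n (Q.sch Cd P ω).xi (Q.n - j) s) := by
  unfold Inst.cur own71
  rcases (Q.inst hid vis).pst Q.n Y Q.l0 (Q.n - j) s with ⟨u, v⟩ | r
  · rfl
  · rfl

theorem own_anti71 (hQ : Q.Ok) (hle : ∀ s u v, hid s u v ≤ vis s u v) (hT : 0 < P.T)
    (hch : ∀ a c C q k f t, a ≤ c → t < P.T → IsChain Q.M a c (P.pk Q.M a c C q k f t))
    (ω : ℕ → ℕ) {j s : ℕ} (hs : s < Q.M ^ (Q.n - j)) :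
    Antitone (own71 Q Cd P hid vis Y ω j s) := by
  intro b b' hb
  have hM : 1 ≤ (Q.inst hid vis).M := by have := hQ.M_two; show 1 ≤ Q.M; omega
  unfold own71
  rcases hp : (Q.inst hid vis).pst Q.n Y Q.l0 (Q.n - j) s with ⟨u, v⟩ | r
  · have huv := (pst_range71 hM _ _ hs u v hp).1
    have h := Inst.c_antitone (Prm.inst_ok71 hQ hle) (Prm.sch_ok71 (Cd := Cd) hT hch ω) (j := j)
      (s := s) huv hb
    simp only
    exact div_le_div_of_nonneg_right (by exact_mod_cast h) (by positivity)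
  · exact le_rfl

theorem own_drop71 (hQ : Q.Ok) (hle : ∀ s u v, hid s u v ≤ vis s u v)
    (hvis : ∀ s u v, vis s u v ≤ hid s u v + Q.l0) (hT : 0 < P.T)
    (hch : ∀ a c C q k f t, a ≤ c → t < P.T → IsChain Q.M a c (P.pk Q.M a c C q k f t))
    (ω : ℕ → ℕ) {j s : ℕ} (hs : s < Q.M ^ (Q.n - j)) (b b' : ℕ) :
    own71 Q Cd P hid vis Y ω j s b - own71 Q Cd P hid vis Y ω j s b' ≤ 1 := by
  have hM : 1 ≤ (Q.inst hid vis).M := by have := hQ.M_two; show 1 ≤ Q.M; omega
  unfold own71
  rcases hp : (Q.inst hid vis).pst Q.n Y Q.l0 (Q.n - j) s with ⟨u, v⟩ | r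
  · have huv := (pst_range71 hM _ _ hs u v hp).1
    have hI := Prm.inst_ok71 (Q := Q) hQ hle
    have hX := Prm.sch_ok71 (Q := Q) (Cd := Cd) hT hch ω
    have h1 := Inst.c_le_U (I := Q.inst hid vis) (X := Q.sch Cd P ω) hI hX j s u v b huv
    have h2 := Inst.D_le_c (I := Q.inst hid vis) (X := Q.sch Cd P ω) hI hX j s u v b' huv
    have h3 := dvis_le71 (I := Q.inst hid vis) hM hvis j s u v huv
    simp only
    have hl : (0 : ℝ) < (Q.M : ℝ) ^ j * Q.l0 := by
      have h4 : 0 < Q.M := by have := hQ.M_two; omega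
      have h5 : 0 < Q.l0 := Nat.mul_pos hQ.m_pos hQ.g0_pos
      positivity
    rw [← sub_div, div_le_one hl]
    have h6 : (Q.inst hid vis).c (Q.sch Cd P ω) j s u v b ≤
        (Q.inst hid vis).c (Q.sch Cd P ω) j s u v b' + Q.M ^ j * Q.l0 :=
      h1.trans (h3.trans (Nat.add_le_add_right h2 _))
    have h7 : ((Q.inst hid vis).c (Q.sch Cd P ω) j s u v b : ℝ) ≤
        (Q.inst hid vis).c (Q.sch Cd P ω) j s u v b' + (Q.M : ℝ) ^ j * Q.l0 := by
      exact_mod_cast h6
    linarith
  · simp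

/-- Places of the jitters of the children of the slab `t` of level `j + 1`. -/
def posx71 (Q : Prm) (Cd : Code) (j t : ℕ) : Fin Q.M → ℕ := fun i => Cd.cx j (Q.M * t + i)

theorem pow_le71 {Q : Prm} (hQ : Q.Ok) (d : ℕ) : Q.M ^ (Q.n - d) ≤ Q.M ^ Q.n :=
  Nat.pow_le_pow_right (by have := hQ.M_two; omega) (Nat.sub_le _ _)

open Q976.Ker in
/-- **OT-5.** -/
theorem atoms_of {R E Pb : ℕ} {Lg e3 : ℝ} (h : Std Q Cd P hid vis Y R E Pb Lg e3)
    (hloc : P.Loc Q.M) (B : ℕ) {j : ℕ} (hj : j < Q.n) {t : ℕ} (ht : t < Q.M ^ (Q.n - (j + 1))) :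
    H731.av (fun ω : Seed R E =>
      ∑ β ∈ range B, (if 1 / (Q.A : ℝ) / 2 ≤
        ch Q.M (uP Q.M) j (fun s => nu (Q.crv Cd P hid vis Y ω) j s (Q.N + β)) t
        then ch Q.M (uP Q.M) j (fun s => nu (Q.crv Cd P hid vis Y ω) j s (Q.N + β)) t else 0)) ≤
      2 * Q.A * (1 / (Q.M : ℝ) + 1 / (Q.J + 1)) := by
  have hQ := h.hQ
  have hle := h.hle
  have hT := h.hP.T_pos
  have hch := h.hP.chain
  have hCd := h.hCd
  have hM0 : 0 < Q.M := by have := hQ.M_two; omega
  have hMI : 1 ≤ (Q.inst hid vis).M := hM0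
  have hA : (0 : ℝ) < Q.A := by exact_mod_cast hQ.A_pos
  have hjP : j < Pb := hj.trans h.b1
  have hNR : Q.N < Pb := by have := hQ.Rd_ge; have := h.b4; omega
  have hJn : Q.J * Q.n + 2 ≤ Pb := by have := hQ.Rd_ge; have := h.b4; omega
  have hchild : ∀ i : Fin Q.M, Q.M * t + i < Q.M ^ (Q.n - j) := fun i => child_lt hj ht i.2
  have hpw : ∀ d, Q.M ^ (Q.n - d) < Pb := fun d => (pow_le71 hQ d).trans_lt h.b2
  -- the places
  have hpos : ∀ i : Fin Q.M, posx71 Q Cd j t i < R := fun i =>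
    hCd.cx_lt _ _ hjP ((hchild i).trans (hpw j))
  have hinj : Function.Injective (posx71 Q Cd j t) := by
    intro i i' hii
    have := (hCd.cx_inj _ _ _ _ hjP ((hchild i).trans (hpw j)) hjP
      ((hchild i').trans (hpw j)) hii).2
    apply Fin.ext; omega
  have hne_x : ∀ j' s', j' ≠ j → j' < Pb → s' < Pb → ∀ i, posx71 Q Cd j t i ≠ Cd.cx j' s' := by
    intro j' s' hjj h1 h2 i hi
    exact hjj (hCd.cx_inj _ _ _ _ hjP ((hchild i).trans (hpw j)) h1 h2 hi).1.symm
  -- the own curves do not see the fresh coins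
  have hown : ∀ d c : Seed R E, ∀ s < Q.M ^ (Q.n - j), ∀ b,
      own71 Q Cd P hid vis Y (sd ((places hpos).piecewise d c)) j s b =
        own71 Q Cd P hid vis Y (sd c) j s b := by
    intro d c s hs b
    have hag : SeedAgree Q Cd Y j (sd ((places hpos).piecewise d c)) (sd c) := by
      refine ⟨fun j' hj' s' hs' => ?_, fun j' h1 hj' s' hs' u v huv hv b hb q hq => ?_⟩
      · exact sd_piecewise_of_ne hpos d c
          (hne_x j' s' (by omega) (by omega) (hs'.trans (hpw j')))
      · refine sd_piecewise_of_ne hpos d c fun i => ?_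
        have hv' : v < Pb := by
          refine lt_of_le_of_lt (hv.trans ?_) h.b3
          exact Nat.mul_le_mul_left _ (pow_le71 hQ j')
        exact hCd.disj _ _ _ _ _ _ _ _ hjP ((hchild i).trans (hpw j)) (by omega)
          (hs'.trans (hpw j')) (by omega) hv' (by omega) (by omega)
    unfold own71
    rcases hp : (Q.inst hid vis).pst Q.n Y Q.l0 (Q.n - j) s with ⟨u, v⟩ | r
    · obtain ⟨huv, hv⟩ := pst_range71 hMI _ _ hs u v hp
      simp only
      rw [sch_c_congr hQ hle hT hch hloc j hj.le hag s hs u v huv hv b]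
    · rfl
  -- the jitters above do not see the fresh coins
  have hlin : ∀ d c : Seed R E,
      lin Q.M Q.n (Q.sch Cd P (sd ((places hpos).piecewise d c))).xi (Q.n - (j + 1)) t =
        lin Q.M Q.n (Q.sch Cd P (sd c)).xi (Q.n - (j + 1)) t := by
    intro d c
    refine lin_congr71 _ (fun d' hd' s hs => ?_) t ht
    show sd _ _ % _ = sd _ _ % _
    rw [sd_piecewise_of_ne hpos d c]
    refine hne_x _ _ (by omega) (by have := h.b1; omega) ?_
    have : Q.M ^ (d' + 1) ≤ Q.M ^ Q.n := Nat.pow_le_pow_right hM0 (by omega)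
    exact hs.trans_le (this.trans h.b2.le)
  -- masses
  set Lc : Seed R E → ℕ := fun c => lin Q.M Q.n (Q.sch Cd P (sd c)).xi (Q.n - (j + 1)) t with hLc
  set m : Seed R E → Fin Q.M → Fin (Q.J + 1) → ℕ → ℝ := fun c i x β =>
    own71 Q Cd P hid vis Y (sd c) j (Q.M * t + i) (Q.N + β - (Lc c + x)) -
      own71 Q Cd P hid vis Y (sd c) j (Q.M * t + i) (Q.N + β + 1 - (Lc c + x)) with hm
  set a : ℝ := 1 / (Q.A : ℝ) / 2 with ha
  have ha0 : 0 < a := by positivity
  rw [av_seed hinj hpos (fun _ => Q.J + 1) (fun _ => Nat.succ_pos _) (fun _ => h.dJ) h.hE _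
    (fun c ξ => ∑ β ∈ range B, (if a ≤ (∑ i, m c i (ξ i) β) / Fintype.card (Fin Q.M) then
      (∑ i, m c i (ξ i) β) / Fintype.card (Fin Q.M) else 0))]
  · have hneE : Nonempty (Seed R E) := ⟨fun _ => ⟨0, h.hE⟩⟩
    have hneM : Nonempty (Fin Q.M) := ⟨⟨0, hM0⟩⟩
    refine H731.av_le fun c => ?_
    have key := H731.atoms (range B) (m c) ?_ ?_ ?_ ha0
    · refine key.trans (le_of_eq ?_)
      rw [Fintype.card_fin, Fintype.card_fin, ha]
      push_cast
      field_simp
    · intro i x β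
      have := own_anti71 (Cd := Cd) (Y := Y) hQ hle hT hch (sd c) (hchild i)
        (show Q.N + β - (Lc c + (x : ℕ)) ≤ Q.N + β + 1 - (Lc c + (x : ℕ)) by omega)
      simp only [hm]; linarith
    · intro i x
      have h1 : ∀ β ∈ range B, m c i x β =
          (fun b => own71 Q Cd P hid vis Y (sd c) j (Q.M * t + i) (Q.N + b - (Lc c + x))) β -
          (fun b => own71 Q Cd P hid vis Y (sd c) j (Q.M * t + i) (Q.N + b - (Lc c + x)))
            (β + 1) := by
        intro β _
        simp only [hm]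
        rw [Nat.add_assoc]
      rw [Finset.sum_congr rfl h1, Finset.sum_range_sub']
      exact own_drop71 hQ hle h.hvis hT hch (sd c) (hchild i) _ _
    · intro i β _
      set g : ℕ → ℝ := fun x => own71 Q Cd P hid vis Y (sd c) j (Q.M * t + i)
        (Q.N + β + 1 - (Lc c + x)) with hg
      have h1 : ∀ x : Fin (Q.J + 1), m c i x β = g (x + 1) - g x := by
        intro x
        simp only [hm, hg]
        have : Q.N + β + 1 - (Lc c + ((x : ℕ) + 1)) = Q.N + β - (Lc c + x) := by omega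
        rw [this]
      rw [Finset.sum_congr rfl fun x _ => h1 x, Fin.sum_univ_eq_sum_range
        (fun x => g (x + 1) - g x) (Q.J + 1), Finset.sum_range_sub]
      exact own_drop71 hQ hle h.hvis hT hch (sd c) (hchild i) _ _
  · intro d c
    refine Finset.sum_congr rfl fun β _ => ?_
    have h1 : ch Q.M (uP Q.M) j (fun s => nu (Q.crv Cd P hid vis Y
          ((places hpos).piecewise d c)) j s (Q.N + β)) t =
        (∑ i, m c i (H731.coinsOf (posx71 Q Cd j t) (fun _ => Q.J + 1)
          (fun _ => Nat.succ_pos _) (sd ((places hpos).piecewise d c)) i) β) /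
          Fintype.card (Fin Q.M) := by
      unfold ch uP
      rw [Fintype.card_fin, Finset.sum_div, Finset.sum_fin_eq_sum_range]
      refine Finset.sum_congr rfl fun i hi => ?_
      have hi' := Finset.mem_range.mp hi
      rw [dif_pos hi']
      have hslab := hchild ⟨i, hi'⟩
      have hlin' : lin Q.M Q.n (Q.sch Cd P (sd ((places hpos).piecewise d c))).xi
          (Q.n - j) (Q.M * t + i) = Lc c +
          sd ((places hpos).piecewise d c) (Cd.cx j (Q.M * t + i)) % (Q.J + 1) := by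
        have e1 : Q.n - j = (Q.n - (j + 1)) + 1 := by omega
        have e2 : (Q.M * t + i) / Q.M = t := by
          rw [Nat.mul_add_div hM0, Nat.div_eq_of_lt hi', Nat.add_zero]
        have e3 : Q.n - (Q.n - (j + 1)) - 1 = j := by omega
        rw [e1, lin, e2, e3, hlin d c]
        rfl
      have h2 : ∀ β', Q.crv Cd P hid vis Y ((places hpos).piecewise d c) j (Q.M * t + i) β' =
          own71 Q Cd P hid vis Y (sd c) j (Q.M * t + i) (β' - (Lc c +
          sd ((places hpos).piecewise d c) (Cd.cx j (Q.M * t + i)) % (Q.J + 1))) := by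
        intro β'
        unfold Prm.crv
        rw [cur_eq_own71, hlin', hown d c _ hslab]
      unfold nu
      beta_reduce
      rw [h2, h2]
      simp only [hm]
      rw [one_div, inv_mul_eq_div]
      rfl
    rw [h1]

theorem stmtAtoms : StmtAtoms := by
  intro _ _ _ _ _ _ _ _ _ _ _ h B _ hj _ ht
  refine atoms_of h (fun a c C q k f f' t hac hf => ?_) B hj ht
  first
    | exact h.hP.loc a c C q k f f' t hf
    | exact h.hP.loc a c C q k f f' t hac hf

end

end Vale.Agent.P315.OT
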