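import Vale.Agent.P315.OT.Setup
import Vale.Agent.P315.H731.Tape

/-!
P315, one-scale track: which coins the certified costs see (in range), and resampling of a family
of coins of the seed.
-/

set_option autoImplicit false

namespace Vale.Agent.P315.OT

open Finset

/-- The picker only looks at the edges in its range. -/
def Picker.Loc (P : Picker) (M : ℕ) : Prop :=
  ∀ a c C q k (f f' : ℕ → ℕ → ℕ → ℕ → ℕ) t, a ≤ c → (∀ k' ≤ k, ∀ i < M, ∀ u v, a ≤ u → u ≤ v →
    v ≤ c → f k' i u v = f' k' i u v) → P.pk M a c C q k f t = P.pk M a c C q k f' t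

/-- The seeds agree on the coins seen by the certified costs of level `j`. -/
structure SeedAgree (Q : Prm) (Cd : Code) (Y j : ℕ) (ω ω' : ℕ → ℕ) : Prop where
  xi : ∀ j' < j, ∀ s < Q.M ^ (Q.n - j'), ω (Cd.cx j' s) = ω' (Cd.cx j' s)
  cl : ∀ j', 1 ≤ j' → j' ≤ j → ∀ s < Q.M ^ (Q.n - j'), ∀ u v, u ≤ v → v ≤ Y * Q.M ^ (Q.n - j') →
    ∀ b < Q.J * Q.n + 2, ∀ q ≤ Q.N, ω (Cd.cl j' s u v b q) = ω' (Cd.cl j' s u v b q)

theorem SeedAgree.mono {Q : Prm} {Cd : Code} {Y j j' : ℕ} {ω ω' : ℕ → ℕ}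
    (h : SeedAgree Q Cd Y j ω ω') (hj : j' ≤ j) : SeedAgree Q Cd Y j' ω ω' :=
  ⟨fun k hk s hs => h.xi k (by omega) s hs,
    fun k h1 hk s hs u v huv hv b hb q hq => h.cl k h1 (by omega) s hs u v huv hv b hb q hq⟩

theorem Prm.inst_ok71 {Q : Prm} (hQ : Q.Ok) {hid vis : ℕ → ℕ → ℕ → ℕ}
    (hle : ∀ s u v, hid s u v ≤ vis s u v) : (Q.inst hid vis).Ok := ⟨hQ.M_two, hle⟩

theorem Prm.sch_ok71 {Q : Prm} {Cd : Code} {P : Picker} (hT : 0 < P.T)
    (hch : ∀ a c C q k f t, a ≤ c → t < P.T → IsChain Q.M a c (P.pk Q.M a c C q k f t))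
    (ω : ℕ → ℕ) : (Q.sch Cd P ω).Ok Q.M Q.J where
  xi_le _ _ := Nat.lt_succ_iff.mp (Nat.mod_lt _ (Nat.succ_pos _))
  chain _ _ _ _ _ _ _ huv := hch _ _ _ _ _ _ _ (Nat.mul_le_mul_right _ huv) (Nat.mod_lt _ hT)

theorem slab_lt {M n j s i : ℕ} (hj : j < n) (hs : s < M ^ (n - (j + 1))) (hi : i < M) :
    s * M + i < M ^ (n - j) := by
  have h := Q976.Ker.child_lt hj hs hi
  rwa [Nat.mul_comm M s] at h

theorem range_step {M n j Y v : ℕ} (hj : j < n) (hv : v ≤ Y * M ^ (n - (j + 1))) :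
    v * M ≤ Y * M ^ (n - j) := by
  have h1 : n - j = (n - (j + 1)) + 1 := by omega
  rw [h1, pow_succ, ← mul_assoc]
  exact Nat.mul_le_mul_right _ hv

/-- **Locality in range.** -/
theorem sch_c_congr {Q : Prm} {Cd : Code} {P : Picker} {hid vis : ℕ → ℕ → ℕ → ℕ} {Y : ℕ}
    (hQ : Q.Ok) (hle : ∀ s u v, hid s u v ≤ vis s u v) (hT : 0 < P.T)
    (hch : ∀ a c C q k f t, a ≤ c → t < P.T → IsChain Q.M a c (P.pk Q.M a c C q k f t))
    (hloc : P.Loc Q.M) {ω ω' : ℕ → ℕ} : ∀ j ≤ Q.n, SeedAgree Q Cd Y j ω ω' →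
    ∀ s < Q.M ^ (Q.n - j), ∀ u v, u ≤ v → v ≤ Y * Q.M ^ (Q.n - j) → ∀ b,
      (Q.inst hid vis).c (Q.sch Cd P ω) j s u v b =
        (Q.inst hid vis).c (Q.sch Cd P ω') j s u v b := by
  have hI : (Q.inst hid vis).Ok := Prm.inst_ok71 hQ hle
  have hX : (Q.sch Cd P ω).Ok (Q.inst hid vis).M Q.J := Prm.sch_ok71 hT hch ω
  have hX' : (Q.sch Cd P ω').Ok (Q.inst hid vis).M Q.J := Prm.sch_ok71 hT hch ω'
  intro j
  induction j with
  | zero => intro _ _ s _ u v _ _ b; rfl
  | succ j ih =>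
    intro hj h s hs u v huv hv b
    have hM : 1 ≤ Q.M := by have := hQ.M_two; omega
    have hih := ih (by omega) (h.mono (Nat.le_succ j))
    rcases Nat.lt_or_ge b (Q.J * (j + 1) + 2) with hb | hb
    swap
    · rw [Inst.c_large hI hX _ _ _ _ _ huv hb, Inst.c_large hI hX' _ _ _ _ _ huv hb]
    have hb' : b < Q.J * Q.n + 2 := by
      have : Q.J * (j + 1) ≤ Q.J * Q.n := Nat.mul_le_mul_left _ hj
      omega
    have huv' : u * Q.M ≤ v * Q.M := Nat.mul_le_mul_right _ huv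
    have he : ∀ k, ∀ i < Q.M, ∀ a a', u * Q.M ≤ a → a ≤ a' → a' ≤ v * Q.M →
        (Q.inst hid vis).e (Q.sch Cd P ω) j s k i a a' =
          (Q.inst hid vis).e (Q.sch Cd P ω') j s k i a a' := by
      intro k i hi a a' _ haa ha'
      have hs' : s * Q.M + i < Q.M ^ (Q.n - j) := slab_lt (by omega) hs hi
      have hxi : (Q.sch Cd P ω).xi j (s * Q.M + i) = (Q.sch Cd P ω').xi j (s * Q.M + i) := by
        show ω _ % _ = ω' _ % _
        rw [h.xi j (Nat.lt_succ_self j) _ hs']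
      rw [Inst.e_def, Inst.e_def]
      show (Q.inst hid vis).edge j (fun a a' => (Q.inst hid vis).c (Q.sch Cd P ω) j
        (s * Q.M + i) a a' (k - (Q.sch Cd P ω).xi j (s * Q.M + i))) a a' =
        (Q.inst hid vis).edge j (fun a a' => (Q.inst hid vis).c (Q.sch Cd P ω') j
        (s * Q.M + i) a a' (k - (Q.sch Cd P ω').xi j (s * Q.M + i))) a a'
      unfold Inst.edge
      simp only []
      rw [hxi, hih _ hs' a a' haa (ha'.trans (range_step (by omega) hv))]
    have hbest : ∀ k, best ((Q.inst hid vis).e (Q.sch Cd P ω) j s k) Q.M (u * Q.M) (v * Q.M) =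
        best ((Q.inst hid vis).e (Q.sch Cd P ω') j s k) Q.M (u * Q.M) (v * Q.M) :=
      fun k => best_congr hM huv' (he k)
    rcases Nat.eq_zero_or_pos b with rfl | hb0
    · rw [Inst.c_succ_zero, Inst.c_succ_zero]; exact hbest 0
    rw [Inst.c_succ _ _ _ _ _ _ hb0, Inst.c_succ _ _ _ _ _ _ hb0]
    refine lmin_congr (hbest b) fun q hq => ?_
    have hq' : q ≤ Q.N := Nat.lt_succ_iff.mp hq
    have hL : (Q.inst hid vis).L (Q.sch Cd P ω) q j s u v b =
        (Q.inst hid vis).L (Q.sch Cd P ω') q j s u v b := by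
      show P.pk Q.M (u * Q.M) (v * Q.M) (Q.C (j + 1 - 1)) (max 1 q) b
          (cut b ((Q.inst hid vis).ed (Q.sch Cd P ω) j s ((Q.inst hid vis).c (Q.sch Cd P ω) j)))
          (ω (Cd.cl (j + 1) s u v b q) % P.T) =
        P.pk Q.M (u * Q.M) (v * Q.M) (Q.C (j + 1 - 1)) (max 1 q) b
          (cut b ((Q.inst hid vis).ed (Q.sch Cd P ω') j s ((Q.inst hid vis).c (Q.sch Cd P ω') j)))
          (ω' (Cd.cl (j + 1) s u v b q) % P.T)
      rw [h.cl (j + 1) (by omega) le_rfl s hs u v huv hv b hb' q hq']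
      refine hloc _ _ _ _ _ _ _ _ huv' ?_
      intro k hk i hi a a' ha haa ha'
      unfold cut
      rw [if_pos hk, if_pos hk]
      exact he k i hi a a' ha haa ha'
    have hLc := Inst.L_chain (I := Q.inst hid vis) hX' q j s u v b huv
    rw [hL]
    exact chainCost_congr hLc (he (b + 1))

/-! ### Resampling of a family of coins -/

section Seed

variable {R E : ℕ} {ι : Type*} [Fintype ι] [DecidableEq ι]

/-- The places of the family. -/
def places {pos : ι → ℕ} (hpos : ∀ i, pos i < R) : Finset (Fin R) :=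
  univ.image fun i => (⟨pos i, hpos i⟩ : Fin R)

theorem sd_piecewise_pos {pos : ι → ℕ} (hpos : ∀ i, pos i < R) (d c : Seed R E) (i : ι) :
    sd ((places hpos).piecewise d c) (pos i) = sd d (pos i) := by
  unfold sd
  rw [dif_pos (hpos i), dif_pos (hpos i)]
  have : (⟨pos i, hpos i⟩ : Fin R) ∈ places hpos := by
    unfold places; exact mem_image_of_mem _ (mem_univ i)
  rw [Finset.piecewise_eq_of_mem _ _ _ this]

theorem sd_piecewise_of_ne {pos : ι → ℕ} (hpos : ∀ i, pos i < R) (d c : Seed R E) {x : ℕ}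
    (hx : ∀ i, pos i ≠ x) : sd ((places hpos).piecewise d c) x = sd c x := by
  unfold sd
  split_ifs with h
  · have : (⟨x, h⟩ : Fin R) ∉ places hpos := by
      unfold places
      rw [mem_image]
      rintro ⟨i, _, hi⟩
      exact hx i (by simpa using congrArg Fin.val hi)
    rw [Finset.piecewise_eq_of_notMem _ _ _ this]
  · rfl

/-- **Resampling.** The coins `ω (pos i) mod e i` are replaced by fresh uniform ones. -/
theorem av_seed {pos : ι → ℕ} (hinj : Function.Injective pos) (hpos : ∀ i, pos i < R)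
    (e : ι → ℕ) (he : ∀ i, 0 < e i) (hd : ∀ i, e i ∣ E) (hE : 0 < E)
    (F : Seed R E → ℝ) (G : Seed R E → (∀ i, Fin (e i)) → ℝ)
    (hFG : ∀ d c : Seed R E, F ((places hpos).piecewise d c) =
      G c (H731.coinsOf pos e he (sd ((places hpos).piecewise d c)))) :
    H731.av F = H731.av (fun c => H731.av (G c)) := by
  have hne : Nonempty (Fin E) := ⟨⟨0, hE⟩⟩
  rw [← H731.av_resample_set (places hpos) F]
  apply H731.av_congr
  intro c
  rw [← H731.tape_av (N := E) (T := R) pos hinj hpos e he hd hE (G c)]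
  apply H731.av_congr
  intro d
  rw [hFG d c]
  congr 1
  funext i
  apply Fin.ext
  show sd ((places hpos).piecewise d c) (pos i) % e i = tape d (pos i) % e i
  rw [sd_piecewise_pos]
  rfl

end Seed

end Vale.Agent.P315.OT
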